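import Vale.Agent.P078.Fin7
import Vale.Agent.P078.Am4

/-! Strong-operator paving, including all inclusions with hyperfinite normalizer. -/

namespace Vale.Agent.Results.P078.Amenable

open Vale.Agent.P078

universe u

theorem result : ∃ C : ℝ, ∀ (H : Type u) [NormedAddCommGroup H] [InnerProductSpace ℂ H]
    [CompleteSpace H] (A M : VonNeumannAlgebra H), IsMasa A M → ∀ ε : ℝ, 0 < ε → ε < 1 →
    (((∃ ξ, TraceVec M ξ) ∨ StdSemifinite M ∨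
      ((∃ ξ, StdVec M ξ) ∧ (NoExp A M ∨ ∀ v, Normalizes A M v → v ∈ A)) ∨ ApproxFinite A M) →
      ∃ r : ℕ, 1 ≤ r ∧ (r : ℝ) ≤ C / ε ^ 2 ∧ ∀ x ∈ M, IsSelfAdjoint x → SoPavable A M x ε r) ∧
    ((∃ ξ, StdVec M ξ) → HyperfiniteNormalizer A M →
      ∃ r : ℕ, 1 ≤ r ∧ (r : ℝ) ≤ C / ε ^ 4 ∧ ∀ x ∈ M, IsSelfAdjoint x → SoPavable A M x ε r) := by
  obtain ⟨C, h⟩ := fin7.{u}
  obtain ⟨D, h'⟩ := hyp4.{u} (fin4 core3 block2 atoms cut2) sing proj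
  refine ⟨max C D, fun H _ _ _ A M hA ε e0 e1 => ⟨fun a => ?_, fun a b => ?_⟩⟩
  · obtain ⟨r, r1, r2, r3⟩ := h H A M hA a ε e0 e1
    exact ⟨r, r1, r2.trans (div_le_div_of_nonneg_right (le_max_left _ _) (by positivity)), r3⟩
  · obtain ⟨r, r1, r2, r3⟩ := h' H A M hA a b ε e0 e1
    exact ⟨r, r1, r2.trans (div_le_div_of_nonneg_right (le_max_right _ _) (by positivity)), r3⟩

end Vale.Agent.Results.P078.Amenable
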