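import Vale.Agent.P078.Fin8

/-! Strong-operator paving of the optimal order in an arbitrary representation. -/

namespace Vale.Agent.Results.P078.Optimal4

open Vale.Agent.P078

universe u

theorem result : ∃ C : ℝ, ∀ (H : Type u) [NormedAddCommGroup H] [InnerProductSpace ℂ H]
    [CompleteSpace H] (A M : VonNeumannAlgebra H), IsMasa A M →
    ((∃ ζ, IsTraceFamily M ζ) ∨
      (SigmaFinite M ∧ (NoCentralState A M ∨ ∀ v, Normalizes A M v → v ∈ A)) ∨ ApproxFinite A M) →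
    ∀ ε : ℝ, 0 < ε → ε < 1 → ∃ r : ℕ, 1 ≤ r ∧ (r : ℝ) ≤ C / ε ^ 2 ∧
      ∀ x ∈ M, IsSelfAdjoint x → SoPavable A M x ε r :=
  fin8

end Vale.Agent.Results.P078.Optimal4
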